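import Vale.Agent.P162.H560.Chain
import Vale.Agent.P162.S2.Abs

/-!
# P162, stage 2, part F1: final forms
-/

open Finset Equiv

namespace Vale.Agent.P162.H560

variable {α : Type*} [Fintype α] [DecidableEq α] {q : Perm α → ℝ} {Λ : ℝ}

/-- **F1**: the mass of the permutations fixing `K` pointwise under `q^{*(m+1)}`. -/
theorem fix_convPow_le (hq : Law q Λ) (hΛ : 0 ≤ Λ) (hα : 1 ≤ Fintype.card α) {s : ℝ} (hs : 1 ≤ s)
    {m : ℕ} (hsN : (Fintype.card α : ℝ) ≤ s ^ (2 * m)) (h1 : s ^ 2 * Λ ≤ 1) (K : Finset α)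
    (hN : 4 * K.card ≤ Fintype.card α)
    (h2 : K.card * (s ^ 2 * (2 / (Fintype.card α : ℝ))) ≤ 1) :
    ∑ g with (∀ a ∈ K, g a = a), convPow q (m + 1) g ≤
      (m + 1) * ((2 / (Fintype.card α : ℝ)) ^ K.card * (2 * 3 ^ K.card) ^ m) := by
  classical
  let e : Fin K.card ≃ K := K.equivFin.symm
  let a : Fin K.card ↪ α := e.toEmbedding.trans (Function.Embedding.subtype _)
  have h := mass_convPow_le (ι := Fin K.card) hq hΛ (by simpa using hN) hα hs hsN h1
    (by simpa using h2) a a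
  rw [Fintype.card_fin] at h
  refine le_trans (le_of_eq ?_) h
  unfold mass
  rw [sum_filter]
  refine sum_congr rfl fun g _ => ?_
  have h3 : (∀ x ∈ K, g x = x) ↔ ∀ i, g (a i) = a i := by
    constructor
    · intro h i
      exact h _ (e i).2
    · intro h x hx
      have h4 := h (e.symm ⟨x, hx⟩)
      have h5 : a (e.symm ⟨x, hx⟩) = x := by
        show ((e (e.symm ⟨x, hx⟩) : K) : α) = x
        rw [Equiv.apply_symm_apply]
      rw [h5] at h4
      exact h4
  by_cases hg : ∀ x ∈ K, g x = x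
  · rw [if_pos hg, if_pos (h3.1 hg)]
  · rw [if_neg hg, if_neg fun h' => hg (h3.2 h')]

/-- **F1, numerical form.** `m κ ≥ 1`, `m δ ≥ 2`, `N^{δ/2} ≥ 4`, `|K| ≤ N^{1-δ}`. -/
theorem fix_convPow_le_rpow {κ δ : ℝ} {m : ℕ} (hκ : 1 ≤ m * κ) (hδ0 : 0 < δ) (hδ : 2 ≤ m * δ)
    (hα : 1 ≤ Fintype.card α)
    (hN : 4 ≤ (Fintype.card α : ℝ) ^ (δ / 2))
    (hq : Law q ((Fintype.card α : ℝ) ^ (-κ))) (K : Finset α)
    (hK : (K.card : ℝ) ≤ (Fintype.card α : ℝ) ^ (1 - δ)) :
    ∑ g with (∀ a ∈ K, g a = a), convPow q (m + 1) g ≤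
      (m + 1) * ((2 / (Fintype.card α : ℝ)) ^ K.card * (2 * 3 ^ K.card) ^ m) := by
  have hα' : (1 : ℝ) ≤ Fintype.card α := by exact_mod_cast hα
  have hα0 : (0 : ℝ) < Fintype.card α := by linarith
  have hm0 : (0 : ℝ) < m := by
    rcases Nat.eq_zero_or_pos m with h | h
    · subst h; norm_num at hκ
    · exact_mod_cast h
  set N : ℝ := (Fintype.card α : ℝ) with hNdef
  set s : ℝ := N ^ (1 / (2 * (m : ℝ))) with hs
  have hs1 : 1 ≤ s := Real.one_le_rpow hα' (by positivity)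
  have hs2 : s ^ 2 = N ^ (1 / (m : ℝ)) := by
    rw [hs, ← Real.rpow_natCast, ← Real.rpow_mul hα0.le]
    congr 1
    push_cast
    field_simp
  have hs3 : s ^ (2 * m) = N := by
    rw [pow_mul, hs2, ← Real.rpow_natCast, ← Real.rpow_mul hα0.le]
    rw [one_div, inv_mul_cancel₀ hm0.ne', Real.rpow_one]
  have hkN : (K.card : ℝ) * N ^ (δ / 2) * N ^ (δ / 2) ≤ N := by
    calc (K.card : ℝ) * N ^ (δ / 2) * N ^ (δ / 2) ≤ N ^ (1 - δ) * N ^ (δ / 2) * N ^ (δ / 2) := by
          gcongr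
      _ = N := by
          rw [← Real.rpow_add hα0, ← Real.rpow_add hα0]
          have : 1 - δ + δ / 2 + δ / 2 = 1 := by ring
          rw [this, Real.rpow_one]
  have hK0 : (0 : ℝ) ≤ K.card := Nat.cast_nonneg _
  have hN2 : 1 ≤ N ^ (δ / 2) := by linarith
  refine fix_convPow_le hq (by positivity) hα hs1 hs3.ge ?_ K ?_ ?_
  · rw [hs2, ← Real.rpow_add hα0]
    refine Real.rpow_le_one_of_one_le_of_nonpos hα' ?_
    have : 1 / (m : ℝ) ≤ κ := by rw [div_le_iff₀ hm0]; linarith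
    linarith
  · have h1 : (4 : ℝ) * K.card ≤ N := by
      calc (4 : ℝ) * K.card = K.card * 4 * 1 := by ring
        _ ≤ K.card * N ^ (δ / 2) * N ^ (δ / 2) := by gcongr
        _ ≤ N := hkN
    rw [hNdef] at h1
    exact_mod_cast h1
  · have h1 : s ^ 2 ≤ N ^ (δ / 2) := by
      rw [hs2]
      refine Real.rpow_le_rpow_of_exponent_le hα' ?_
      rw [div_le_iff₀ hm0]
      linarith
    have h2 : (K.card : ℝ) * (s ^ 2 * (2 / N)) = (K.card * s ^ 2 * 2) / N := by
      field_simp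
    rw [h2, div_le_one hα0]
    calc (K.card : ℝ) * s ^ 2 * 2 ≤ K.card * N ^ (δ / 2) * N ^ (δ / 2) := by
          gcongr
          linarith
      _ ≤ N := hkN

/-- the data of the abstract side give the hypotheses of F1 -/
theorem law_of_data {κ : ℝ} (h : S2.Abs.Data q κ) : Law q ((Fintype.card α : ℝ) ^ (-κ)) where
  nonneg := h.nonneg
  sum_le := h.sum_le
  conj := h.class_fn
  inv := h.symm
  fix := h.fix_le

end Vale.Agent.P162.H560
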