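import Vale.Agent.P162.H560.Emb

/-!
# P162, stage 2, part F1: the chain bound
-/

open Finset Equiv

namespace Vale.Agent.P162.H560

section matrix
variable {E : Type*} [Fintype E] [DecidableEq E]

/-- A product of matrices as a sum over chains. -/
theorem ofFn_prod_apply : ∀ (m : ℕ) (F : Fin m → Matrix E E ℝ) (a b : E),
    (List.ofFn F).prod a b = ∑ x : Fin (m + 1) → E,
      if x 0 = a ∧ x (Fin.last m) = b then ∏ i : Fin m, F i (x i.castSucc) (x i.succ) else 0
  | 0, F, a, b => by
    rw [List.ofFn_zero, List.prod_nil, Matrix.one_apply]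
    rw [← (Equiv.funUnique (Fin 1) E).symm.sum_comp]
    simp only [Fin.prod_univ_zero]
    have h : ∀ e : E, ((Equiv.funUnique (Fin 1) E).symm e 0 = a ∧
        (Equiv.funUnique (Fin 1) E).symm e (Fin.last 0) = b) ↔ (e = a ∧ e = b) := fun e => Iff.rfl
    simp only [h]
    by_cases hab : a = b
    · subst hab
      simp
    · rw [if_neg hab]
      symm
      refine sum_eq_zero fun e _ => if_neg ?_
      rintro ⟨rfl, rfl⟩
      exact hab rfl
  | m + 1, F, a, b => by
    rw [List.ofFn_succ, List.prod_cons, Matrix.mul_apply]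
    simp_rw [ofFn_prod_apply m]
    rw [← (Fin.consEquiv (fun _ : Fin (m + 2) => E)).sum_comp, Fintype.sum_prod_type]
    have h1 : ∀ (e : E) (y : Fin (m + 1) → E),
        (if (Fin.consEquiv (fun _ : Fin (m + 2) => E)) (e, y) 0 = a ∧
            (Fin.consEquiv (fun _ : Fin (m + 2) => E)) (e, y) (Fin.last (m + 1)) = b then
          ∏ i : Fin (m + 1), F i ((Fin.consEquiv (fun _ : Fin (m + 2) => E)) (e, y) i.castSucc)
            ((Fin.consEquiv (fun _ : Fin (m + 2) => E)) (e, y) i.succ) else 0) =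
        if e = a ∧ y (Fin.last m) = b then
          F 0 e (y 0) * ∏ i : Fin m, F i.succ (y i.castSucc) (y i.succ) else 0 := by
      intro e y
      have e0 : (Fin.consEquiv (fun _ : Fin (m + 2) => E)) (e, y) 0 = e := rfl
      have e1 : ∀ i : Fin (m + 1), (Fin.consEquiv (fun _ : Fin (m + 2) => E)) (e, y) i.succ = y i :=
        fun i => rfl
      have e2 : (Fin.consEquiv (fun _ : Fin (m + 2) => E)) (e, y) (Fin.last (m + 1)) =
          y (Fin.last m) := by rw [← Fin.succ_last, e1]
      rw [e0, e2]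
      congr 1
      rw [Fin.prod_univ_succ]
      congr 1
    simp_rw [h1]
    have h2 : (∑ e : E, ∑ y : Fin (m + 1) → E, if e = a ∧ y (Fin.last m) = b then
          F 0 e (y 0) * ∏ i : Fin m, F i.succ (y i.castSucc) (y i.succ) else 0) =
        ∑ y : Fin (m + 1) → E, if a = a ∧ y (Fin.last m) = b then
          F 0 a (y 0) * ∏ i : Fin m, F i.succ (y i.castSucc) (y i.succ) else 0 := by
      refine sum_eq_single a (fun e _ he => sum_eq_zero fun y _ => if_neg fun h => he h.1) ?_
      intro h; exact absurd (mem_univ _) h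
    rw [h2]
    have h3 : ∀ c : E, F 0 a c * (∑ x : Fin (m + 1) → E, if x 0 = c ∧ x (Fin.last m) = b then
          ∏ i : Fin m, F i.succ (x i.castSucc) (x i.succ) else 0) =
        ∑ x : Fin (m + 1) → E, F 0 a c * (if x 0 = c ∧ x (Fin.last m) = b then
          ∏ i : Fin m, F i.succ (x i.castSucc) (x i.succ) else 0) := fun c => mul_sum _ _ _
    rw [sum_congr rfl fun c _ => h3 c, sum_comm]
    refine sum_congr rfl fun y _ => ?_
    by_cases hy : y (Fin.last m) = b
    · rw [if_pos ⟨rfl, hy⟩]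
      have h4 : (∑ c : E, F 0 a c * (if y 0 = c ∧ y (Fin.last m) = b then
          ∏ i : Fin m, F i.succ (y i.castSucc) (y i.succ) else 0)) =
          F 0 a (y 0) * (if y 0 = y 0 ∧ y (Fin.last m) = b then
          ∏ i : Fin m, F i.succ (y i.castSucc) (y i.succ) else 0) := by
        refine sum_eq_single (y 0) (fun c _ hc => ?_) ?_
        · rw [if_neg fun h => hc h.1.symm, mul_zero]
        · intro h; exact absurd (mem_univ _) h
      rw [h4, if_pos ⟨rfl, hy⟩]
    · rw [if_neg fun h => hy h.2]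
      refine sum_eq_zero fun c _ => ?_
      rw [if_neg fun h => hy h.2, mul_zero]

theorem pow_nonneg_apply {M : Matrix E E ℝ} (hM : ∀ a b, 0 ≤ M a b) (m : ℕ) (a b : E) :
    0 ≤ (M ^ m) a b := by
  induction m generalizing a b with
  | zero =>
    rw [pow_zero, Matrix.one_apply]
    split_ifs
    exacts [zero_le_one, le_rfl]
  | succ m ih =>
    rw [pow_succ, Matrix.mul_apply]
    exact sum_nonneg fun c _ => mul_nonneg (ih a c) (hM c b)

theorem col_pow_le {M : Matrix E E ℝ} {G : ℝ} (hG : 0 ≤ G)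
    (hcol : ∀ b, ∑ a, M a b ≤ G) (hM : ∀ a b, 0 ≤ M a b) (m : ℕ) (b : E) :
    ∑ a, (M ^ m) a b ≤ G ^ m := by
  induction m generalizing b with
  | zero =>
    simp [Matrix.one_apply]
  | succ m ih =>
    calc ∑ a, (M ^ (m + 1)) a b = ∑ c, (∑ a, (M ^ m) a c) * M c b := by
          simp_rw [pow_succ, Matrix.mul_apply, sum_mul]
          exact sum_comm
      _ ≤ ∑ c, G ^ m * M c b := sum_le_sum fun c _ => mul_le_mul_of_nonneg_right (ih c) (hM c b)
      _ = G ^ m * ∑ c, M c b := by rw [mul_sum]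
      _ ≤ G ^ m * G := mul_le_mul_of_nonneg_left (hcol b) (by positivity)
      _ = G ^ (m + 1) := (pow_succ G m).symm

/-- A product of `m` factors `M` and one constant matrix. -/
theorem one_const_le {M : Matrix E E ℝ} {G u : ℝ} (hG : 0 ≤ G) (hu : 0 ≤ u)
    (hM : ∀ a b, 0 ≤ M a b) (hrow : ∀ a, ∑ b, M a b ≤ G) (hcol : ∀ b, ∑ a, M a b ≤ G) :
    ∀ (m : ℕ) (j : Fin (m + 1)) (a b : E),
      (List.ofFn fun i : Fin (m + 1) =>
        if i = j then (Matrix.of fun _ _ => u : Matrix E E ℝ) else M).prod a b ≤ u * G ^ m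
  | 0, j, a, b => by
    have hj : j = 0 := Fin.ext (by omega)
    subst hj
    rw [List.ofFn_succ, List.ofFn_zero]
    simp
  | m + 1, j, a, b => by
    rw [List.ofFn_succ, List.prod_cons, Matrix.mul_apply]
    refine Fin.cases ?_ (fun j' => ?_) j
    · rw [if_pos rfl]
      have h1 : (List.ofFn fun i : Fin (m + 1) =>
          if i.succ = 0 then (Matrix.of fun _ _ => u : Matrix E E ℝ) else M) =
          List.replicate (m + 1) M := by
        rw [← List.ofFn_const]
        congr 1
      rw [h1, List.prod_replicate]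
      calc ∑ c, (Matrix.of fun _ _ => u : Matrix E E ℝ) a c * (M ^ (m + 1)) c b
          = u * ∑ c, (M ^ (m + 1)) c b := by rw [mul_sum]; rfl
        _ ≤ u * G ^ (m + 1) := mul_le_mul_of_nonneg_left (col_pow_le hG hcol hM _ b) hu
    · rw [if_neg (Fin.succ_ne_zero j').symm]
      have h1 : (List.ofFn fun i : Fin (m + 1) =>
          if i.succ = j'.succ then (Matrix.of fun _ _ => u : Matrix E E ℝ) else M) =
          List.ofFn fun i : Fin (m + 1) =>
            if i = j' then (Matrix.of fun _ _ => u : Matrix E E ℝ) else M := by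
        congr 1
        funext i
        simp only [Fin.succ_inj]
      rw [h1]
      calc _ ≤ ∑ c, M a c * (u * G ^ m) := sum_le_sum fun c _ =>
            mul_le_mul_of_nonneg_left (one_const_le hG hu hM hrow hcol m j' c b) (hM a c)
        _ = (∑ c, M a c) * (u * G ^ m) := by rw [sum_mul]
        _ ≤ G * (u * G ^ m) := mul_le_mul_of_nonneg_right (hrow a) (by positivity)
        _ = u * G ^ (m + 1) := by ring

/-- the pointwise inequality -/
theorem prod_le_sum {m : ℕ} (p t : Fin (m + 1) → ℝ) {u : ℝ} (hu : 0 ≤ u) (hp : ∀ i, 0 ≤ p i)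
    (ht : ∀ i, 1 ≤ t i) (h : ∀ i, p i ≤ u * t i ^ m) :
    ∏ i, p i ≤ ∑ j, ∏ i, if i = j then u else p i * t i := by
  obtain ⟨j, hj⟩ := Finite.exists_min t
  have h0 : ∀ i, 0 ≤ t i := fun i => zero_le_one.trans (ht i)
  have hnn : ∀ j' ∈ univ, 0 ≤ ∏ i, (if i = j' then u else p i * t i) := fun j' _ =>
    prod_nonneg fun i _ => by
      split_ifs
      exacts [hu, mul_nonneg (hp i) (h0 i)]
  refine le_trans ?_ (single_le_sum hnn (mem_univ j))
  rw [← mul_prod_erase univ p (mem_univ j), ← mul_prod_erase univ _ (mem_univ j), if_pos rfl]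
  have h1 : ∏ i ∈ univ.erase j, (if i = j then u else p i * t i) =
      (∏ i ∈ univ.erase j, p i) * ∏ i ∈ univ.erase j, t i := by
    rw [← prod_mul_distrib]
    exact prod_congr rfl fun i hi => if_neg (ne_of_mem_erase hi)
  have h2 : t j ^ m ≤ ∏ i ∈ univ.erase j, t i := by
    have h3 : ∏ _i ∈ univ.erase j, t j = t j ^ m := by
      rw [prod_const, card_erase_of_mem (mem_univ j), card_univ, Fintype.card_fin]
      rfl
    rw [← h3]
    exact prod_le_prod (fun _ _ => h0 j) fun i _ => hj i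
  have h4 : 0 ≤ ∏ i ∈ univ.erase j, p i := prod_nonneg fun i _ => hp i
  rw [h1]
  calc p j * ∏ i ∈ univ.erase j, p i ≤ (u * t j ^ m) * ∏ i ∈ univ.erase j, p i :=
        mul_le_mul_of_nonneg_right (h j) h4
    _ ≤ (u * ∏ i ∈ univ.erase j, t i) * ∏ i ∈ univ.erase j, p i :=
        mul_le_mul_of_nonneg_right (mul_le_mul_of_nonneg_left h2 hu) h4
    _ = _ := by ring

/-- **The chain bound**, abstract form. -/
theorem pow_le_of_weights {P : Matrix E E ℝ} {t : E → E → ℝ} {G u : ℝ} {m : ℕ} (hG : 0 ≤ G)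
    (hu : 0 ≤ u) (hP : ∀ a b, 0 ≤ P a b) (ht : ∀ a b, 1 ≤ t a b)
    (h1 : ∀ a b, P a b ≤ u * t a b ^ m) (hrow : ∀ a, ∑ b, P a b * t a b ≤ G)
    (hcol : ∀ b, ∑ a, P a b * t a b ≤ G) (a b : E) :
    (P ^ (m + 1)) a b ≤ (m + 1) * (u * G ^ m) := by
  have e1 : P ^ (m + 1) = (List.ofFn fun _ : Fin (m + 1) => P).prod := by
    rw [List.ofFn_const, List.prod_replicate]
  rw [e1, ofFn_prod_apply]
  calc _ ≤ ∑ x : Fin (m + 2) → E, ∑ j : Fin (m + 1),
        (if x 0 = a ∧ x (Fin.last (m + 1)) = b then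
          ∏ i : Fin (m + 1), (if i = j then (Matrix.of fun _ _ => u : Matrix E E ℝ) else
            (Matrix.of fun a b => P a b * t a b)) (x i.castSucc) (x i.succ) else 0) := by
        refine sum_le_sum fun x _ => ?_
        by_cases hx : x 0 = a ∧ x (Fin.last (m + 1)) = b
        · simp only [if_pos hx]
          refine (prod_le_sum (fun i => P (x i.castSucc) (x i.succ))
            (fun i => t (x i.castSucc) (x i.succ)) hu (fun i => hP _ _) (fun i => ht _ _)
            (fun i => h1 _ _)).trans (le_of_eq ?_)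
          refine sum_congr rfl fun j _ => prod_congr rfl fun i _ => ?_
          split_ifs <;> rfl
        · simp only [if_neg hx]
          simp
    _ = ∑ j : Fin (m + 1), (List.ofFn fun i : Fin (m + 1) =>
          if i = j then (Matrix.of fun _ _ => u : Matrix E E ℝ) else
            (Matrix.of fun a b => P a b * t a b)).prod a b := by
        rw [sum_comm]
        refine sum_congr rfl fun j _ => ?_
        rw [ofFn_prod_apply]
    _ ≤ ∑ _j : Fin (m + 1), u * G ^ m := by
        refine sum_le_sum fun j _ => one_const_le hG hu (fun a b => ?_) (fun a => ?_)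
          (fun b => ?_) m j a b
        · exact mul_nonneg (hP a b) (zero_le_one.trans (ht a b))
        · exact hrow a
        · exact hcol b
    _ = (m + 1) * (u * G ^ m) := by
        rw [sum_const, card_univ, Fintype.card_fin, nsmul_eq_mul]
        push_cast
        rfl

end matrix

variable {α : Type*} [Fintype α] [DecidableEq α] {q : Perm α → ℝ} {Λ : ℝ}

section chain
variable {ι : Type*} [LinearOrder ι] [Fintype ι]

/-- the transition matrix of `ι`-labelled cards -/
noncomputable def PM (ι : Type*) (q : Perm α → ℝ) : Matrix (ι ↪ α) (ι ↪ α) ℝ :=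
  Matrix.of fun a b => pm q a b

/-- **F1, matrix form.** -/
theorem PM_pow_le (hq : Law q Λ) (hΛ : 0 ≤ Λ) (hN : 4 * Fintype.card ι ≤ Fintype.card α)
    (hα : 1 ≤ Fintype.card α) {s : ℝ} (hs : 1 ≤ s) {m : ℕ}
    (hsN : (Fintype.card α : ℝ) ≤ s ^ (2 * m)) (h1 : s ^ 2 * Λ ≤ 1)
    (h2 : Fintype.card ι * (s ^ 2 * (2 / (Fintype.card α : ℝ))) ≤ 1) (a b : ι ↪ α) :
    (PM ι q ^ (m + 1)) a b ≤ (m + 1) *
      ((2 / (Fintype.card α : ℝ)) ^ Fintype.card ι * (2 * 3 ^ Fintype.card ι) ^ m) := by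
  refine pow_le_of_weights (t := fun a b : ι ↪ α => s ^ bt a b)
    (G := 2 * 3 ^ Fintype.card ι) (by positivity) (by positivity)
    (fun a b => pm_nonneg hq a b) (fun a b => one_le_pow₀ hs)
    (fun a b => pm_le hq hΛ hN hα hs hsN a b) (fun a => sum_pm_le hq hΛ hN hs h1 h2 a)
    (fun b => ?_) a b
  refine le_trans (le_of_eq ?_) (sum_pm_le hq hΛ hN hs h1 h2 b)
  refine sum_congr rfl fun a _ => ?_
  show pm q a b * s ^ bt a b = pm q b a * s ^ bt b a
  rw [pm_symm hq, bt_symm]

end chain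

/-! ### convolution powers -/

section conv
variable {ι : Type*} [Fintype ι] [DecidableEq ι]

omit [DecidableEq ι] in
theorem pm_one [DecidableEq (ι ↪ α)] (a b : ι ↪ α) :
    pm (fun g : Perm α => if g = 1 then (1 : ℝ) else 0) a b = if a = b then 1 else 0 := by
  rw [pm_eq, sum_eq_single (1 : Perm α)]
  · simp only [if_true, Perm.one_apply]
    by_cases h : a = b
    · subst h; simp
    · rw [if_neg h, if_neg]
      intro h'
      exact h (Function.Embedding.ext h')
  · intro g _ hg
    simp [hg]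
  · intro h; exact absurd (mem_univ _) h

theorem pm_conv (μ ν : Perm α → ℝ) (a b : ι ↪ α) :
    pm (conv μ ν) a b = ∑ c, pm ν a c * pm μ c b := by
  simp only [pm_eq]
  unfold conv
  have h1 : ∀ g : Perm α, (if (∀ i, g (a i) = b i) then ∑ h, μ h * ν (h⁻¹ * g) else 0) =
      ∑ h, if (∀ i, g (a i) = b i) then μ h * ν (h⁻¹ * g) else 0 := by
    intro g
    split_ifs
    · rfl
    · simp
  simp_rw [h1]
  rw [sum_comm]
  have h2 : ∀ h : Perm α, (∑ g : Perm α, if (∀ i, g (a i) = b i) then μ h * ν (h⁻¹ * g) else 0) =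
      ∑ g : Perm α, if (∀ i, h (g (a i)) = b i) then μ h * ν g else 0 := by
    intro h
    refine Fintype.sum_equiv (Equiv.mulLeft h⁻¹) _ _ fun g => ?_
    have : (∀ i, g (a i) = b i) ↔ ∀ i, h ((Equiv.mulLeft h⁻¹ g) (a i)) = b i := by
      refine forall_congr' fun i => ?_
      show g (a i) = b i ↔ h ((h⁻¹ * g) (a i)) = b i
      rw [Perm.mul_apply]
      simp
    by_cases hg : ∀ i, g (a i) = b i
    · rw [if_pos hg, if_pos (this.1 hg)]; rfl
    · rw [if_neg hg, if_neg fun h' => hg (this.2 h')]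
  simp_rw [h2]
  have h3 : ∀ c : ι ↪ α, (∑ g : Perm α, if (∀ i, g (a i) = c i) then ν g else 0) *
      (∑ h : Perm α, if (∀ i, h (c i) = b i) then μ h else 0) =
      ∑ h : Perm α, ∑ g : Perm α, if ((∀ i, g (a i) = c i) ∧ ∀ i, h (c i) = b i) then
        μ h * ν g else 0 := by
    intro c
    rw [sum_mul_sum, sum_comm]
    refine sum_congr rfl fun h _ => sum_congr rfl fun g _ => ?_
    by_cases hg : ∀ i, g (a i) = c i
    · by_cases hh : ∀ i, h (c i) = b i
      · rw [if_pos hg, if_pos hh, if_pos (And.intro hg hh), mul_comm]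
      · have h4 : ¬ ((∀ i, g (a i) = c i) ∧ ∀ i, h (c i) = b i) := fun h' => hh h'.2
        rw [if_pos hg, if_neg hh, if_neg h4, mul_zero]
    · have h4 : ¬ ((∀ i, g (a i) = c i) ∧ ∀ i, h (c i) = b i) := fun h' => hg h'.1
      rw [if_neg hg, if_neg h4, zero_mul]
  rw [sum_congr rfl fun c _ => h3 c]
  rw [sum_comm (s := (univ : Finset (ι ↪ α)))]
  refine sum_congr rfl fun h _ => ?_
  rw [sum_comm (s := (univ : Finset (ι ↪ α)))]
  refine sum_congr rfl fun g _ => ?_
  rw [sum_eq_single (a.trans g.toEmbedding)]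
  · have e1 : ∀ i, g (a i) = (a.trans g.toEmbedding) i := fun i => rfl
    by_cases hh : ∀ i, h (g (a i)) = b i
    · rw [if_pos hh, if_pos ⟨e1, hh⟩]
    · rw [if_neg hh, if_neg fun h' => hh h'.2]
  · intro c _ hc
    rw [if_neg]
    rintro ⟨h', -⟩
    exact hc (by ext i; exact (h' i).symm)
  · intro h'; exact absurd (mem_univ _) h'

theorem PM_pow (q : Perm α → ℝ) (m : ℕ) : PM ι (convPow q m) = PM ι q ^ m := by
  induction m with
  | zero =>
    ext a b
    rw [pow_zero, Matrix.one_apply]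
    exact pm_one a b
  | succ m ih =>
    rw [pow_succ, ← ih]
    ext a b
    rw [Matrix.mul_apply]
    exact pm_conv q (convPow q m) a b

end conv

/-- **F1.** The `(m+1)`-step walk maps the points `a i` to the points `b i`. -/
theorem mass_convPow_le {ι : Type*} [LinearOrder ι] [Fintype ι] (hq : Law q Λ) (hΛ : 0 ≤ Λ)
    (hN : 4 * Fintype.card ι ≤ Fintype.card α)
    (hα : 1 ≤ Fintype.card α) {s : ℝ} (hs : 1 ≤ s) {m : ℕ}
    (hsN : (Fintype.card α : ℝ) ≤ s ^ (2 * m)) (h1 : s ^ 2 * Λ ≤ 1)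
    (h2 : Fintype.card ι * (s ^ 2 * (2 / (Fintype.card α : ℝ))) ≤ 1) (a b : ι ↪ α) :
    mass (convPow q (m + 1)) (fun g => ∀ i, g (a i) = b i) ≤ (m + 1) *
      ((2 / (Fintype.card α : ℝ)) ^ Fintype.card ι * (2 * 3 ^ Fintype.card ι) ^ m) := by
  have h := PM_pow_le hq hΛ hN hα hs hsN h1 h2 a b
  rw [← PM_pow] at h
  exact h

end Vale.Agent.P162.H560
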