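import Vale.Agent.P162.Defs

/-!
# P162, stage 2, part F1: few labelled cards

`q` is a symmetric class function on `Perm α`, nonnegative of mass at most one, such that the mass
of the permutations fixing `S` pointwise is at most `Λ ^ |S|`.  We bound the probability that the
`m`-step walk with increments of law `q` maps `k` given points to `k` given points.
-/

open Finset Equiv

namespace Vale.Agent.P162.H560

variable {α : Type*} [Fintype α] [DecidableEq α]

/-- The hypotheses on `q`. -/
structure Law (q : Perm α → ℝ) (Λ : ℝ) : Prop where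
  nonneg : ∀ g, 0 ≤ q g
  sum_le : ∑ g, q g ≤ 1
  conj : ∀ x g, q (x * g * x⁻¹) = q g
  inv : ∀ g, q g⁻¹ = q g
  fix : ∀ S : Finset α, ∑ g with (∀ a ∈ S, g a = a), q g ≤ Λ ^ S.card

open Classical in
/-- the mass of an event -/
noncomputable def mass (q : Perm α → ℝ) (E : Perm α → Prop) : ℝ := ∑ g, if E g then q g else 0

variable {q : Perm α → ℝ} {Λ : ℝ}

theorem mass_nonneg (hq : Law q Λ) (E : Perm α → Prop) : 0 ≤ mass q E :=
  sum_nonneg fun g _ => by split_ifs; exacts [hq.nonneg g, le_rfl]

theorem mass_mono (hq : Law q Λ) {E E' : Perm α → Prop} (h : ∀ g, E g → E' g) :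
    mass q E ≤ mass q E' := by
  refine sum_le_sum fun g _ => ?_
  by_cases hg : E g
  · rw [if_pos hg, if_pos (h g hg)]
  · rw [if_neg hg]
    split_ifs
    exacts [hq.nonneg g, le_rfl]

theorem mass_congr {E E' : Perm α → Prop} (h : ∀ g, E g ↔ E' g) : mass q E = mass q E' := by
  unfold mass
  refine sum_congr rfl fun g _ => ?_
  by_cases hg : E g
  · rw [if_pos hg, if_pos ((h g).1 hg)]
  · rw [if_neg hg, if_neg fun h' => hg ((h g).2 h')]

theorem mass_eq_zero {E : Perm α → Prop} (h : ∀ g, ¬ E g) : mass q E = 0 :=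
  sum_eq_zero fun g _ => if_neg (h g)

theorem mass_conj (hq : Law q Λ) {V : Finset α} {E : Perm α → Prop}
    (hE : ∀ τ : Perm α, (∀ v ∈ V, τ v = v) → ∀ g, E g → E (τ * g * τ⁻¹)) {x y y' : α}
    (hx : x ∈ V) (hy : y ∉ V) (hy' : y' ∉ V) :
    mass q (fun g => E g ∧ g x = y) = mass q (fun g => E g ∧ g x = y') := by
  classical
  set τ : Perm α := swap y y' with hτ
  have hfix : ∀ v ∈ V, τ v = v := fun v hv =>
    swap_apply_of_ne_of_ne (by rintro rfl; exact hy hv) (by rintro rfl; exact hy' hv)
  have hfix' : ∀ v ∈ V, τ⁻¹ v = v := fun v hv => by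
    rw [Perm.inv_eq_iff_eq]; exact (hfix v hv).symm
  unfold mass
  refine Fintype.sum_equiv (MulAut.conj τ).toEquiv _ _ fun g => ?_
  have h1 : (MulAut.conj τ).toEquiv g = τ * g * τ⁻¹ := rfl
  rw [h1, hq.conj]
  have h2 : (τ * g * τ⁻¹) x = τ (g x) := by
    rw [Perm.mul_apply, Perm.mul_apply, hfix' x hx]
  have h3 : (E g ∧ g x = y) ↔ (E (τ * g * τ⁻¹) ∧ (τ * g * τ⁻¹) x = y') := by
    rw [h2]
    constructor
    · rintro ⟨h4, h5⟩
      exact ⟨hE τ hfix g h4, by rw [h5, hτ, swap_apply_left]⟩
    · rintro ⟨h4, h5⟩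
      have h6 := hE τ⁻¹ hfix' _ h4
      have h7 : τ⁻¹ * (τ * g * τ⁻¹) * τ⁻¹⁻¹ = g := by group
      rw [h7] at h6
      refine ⟨h6, ?_⟩
      have h8 : g x = τ⁻¹ y' := by rw [← h5]; simp
      rw [h8, hτ, swap_inv, swap_apply_right]
  by_cases h : E g ∧ g x = y
  · rw [if_pos h, if_pos (h3.1 h)]
  · rw [if_neg h, if_neg fun h' => h (h3.2 h')]

/-- **A fresh target.** -/
theorem fresh (hq : Law q Λ) {V : Finset α} {E : Perm α → Prop}
    (hE : ∀ τ : Perm α, (∀ v ∈ V, τ v = v) → ∀ g, E g → E (τ * g * τ⁻¹)) {x y : α}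
    (hx : x ∈ V) (hy : y ∉ V) :
    ((Fintype.card α : ℝ) - V.card) * mass q (fun g => E g ∧ g x = y) ≤ mass q E := by
  classical
  have h1 : ∑ y' ∈ Vᶜ, mass q (fun g => E g ∧ g x = y') ≤ mass q E := by
    unfold mass
    rw [sum_comm]
    refine sum_le_sum fun g _ => ?_
    by_cases hg : E g
    · rw [if_pos hg]
      have h2 : ∀ y' ∈ Vᶜ, (if (E g ∧ g x = y') then q g else 0) =
          if g x = y' then q g else 0 := fun y' _ => by
        by_cases h : g x = y'
        · rw [if_pos ⟨hg, h⟩, if_pos h]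
        · rw [if_neg fun h' => h h'.2, if_neg h]
      calc _ = ∑ y' ∈ Vᶜ, (if g x = y' then q g else 0) := by
            refine sum_congr rfl fun y' hy' => ?_
            rw [← h2 y' hy']
            congr
        _ ≤ q g := by
            rw [sum_ite_eq]
            split_ifs
            exacts [le_rfl, hq.nonneg g]
    · rw [if_neg hg]
      exact (sum_eq_zero fun y' _ => if_neg fun h => hg h.1).le
  have h2 : ∑ y' ∈ Vᶜ, mass q (fun g => E g ∧ g x = y') =
      ((Fintype.card α : ℝ) - V.card) * mass q (fun g => E g ∧ g x = y) := by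
    rw [sum_congr rfl fun y' hy' => (mass_conj hq hE hx hy (mem_compl.1 hy')).symm, sum_const,
      card_compl, nsmul_eq_mul, Nat.cast_sub (card_le_univ V)]
  rw [← h2]
  exact h1

section chain
variable {ι : Type*} [LinearOrder ι] [Fintype ι]

/-- **Sequential exposure.** The loops `i ∈ L` and the steps `a i ↦ b i`, `i ∈ J`, where no target
`b i` is one of the points `a j`, `j ≤ i`, `j ∈ J`. -/
theorem mass_steps (hq : Law q Λ) (hΛ : 0 ≤ Λ) (hN : 4 * Fintype.card ι ≤ Fintype.card α)
    (a : ι → α) (ha : Function.Injective a) (b : ι → α) (L J : Finset ι) (hLJ : Disjoint L J)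
    (hb : ∀ i ∈ J, ∀ j ∈ J, j ≤ i → b i ≠ a j) :
    mass q (fun g => (∀ i ∈ L, g (a i) = a i) ∧ ∀ i ∈ J, g (a i) = b i) ≤
      Λ ^ L.card * (2 / (Fintype.card α : ℝ)) ^ J.card := by
  classical
  induction J using Finset.induction_on_max with
  | empty =>
    rw [card_empty, pow_zero, mul_one]
    refine le_trans (le_of_eq ?_) ((hq.fix (L.image a)).trans (le_of_eq ?_))
    · unfold mass
      rw [sum_filter]
      refine sum_congr rfl fun g _ => ?_
      simp
    · rw [card_image_of_injective _ ha]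
  | insert i J hmax ih =>
    have hi : i ∉ J := fun h => lt_irrefl i (hmax i h)
    have hLJ' : Disjoint L J := hLJ.mono_right (subset_insert i J)
    have hiL : i ∉ L := fun h => Finset.disjoint_left.1 hLJ h (mem_insert_self i J)
    have ih' := ih hLJ' fun i' hi' j hj hle =>
      hb i' (mem_insert_of_mem hi') j (mem_insert_of_mem hj) hle
    have hcard : L.card + J.card + 1 ≤ Fintype.card ι := by
      have h1 : (insert i (L ∪ J)).card ≤ Fintype.card ι := card_le_univ _
      rw [card_insert_of_notMem (by simp [hiL, hi]), card_union_of_disjoint hLJ'] at h1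
      exact h1
    have hN0 : (0 : ℝ) < Fintype.card α := by
      have : 0 < Fintype.card α := by omega
      exact_mod_cast this
    set V : Finset α := (L.image a) ∪ (J.image a) ∪ (J.image b) ∪ {a i} with hV
    have hVcard : V.card ≤ L.card + J.card + J.card + 1 := by
      refine (card_union_le _ _).trans (Nat.add_le_add ((card_union_le _ _).trans
        (Nat.add_le_add ((card_union_le _ _).trans (Nat.add_le_add card_image_le card_image_le))
          card_image_le)) ?_)
      simp
    set E : Perm α → Prop := fun g => (∀ i ∈ L, g (a i) = a i) ∧ ∀ i ∈ J, g (a i) = b i with hE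
    have hEc : ∀ τ : Perm α, (∀ v ∈ V, τ v = v) → ∀ g, E g → E (τ * g * τ⁻¹) := by
      intro τ hτ g hg
      have hτ' : ∀ v ∈ V, τ⁻¹ v = v := fun v hv => by
        rw [Perm.inv_eq_iff_eq]; exact (hτ v hv).symm
      have m1 : ∀ j ∈ L, a j ∈ V := fun j hj => by
        simp only [hV, mem_union]
        exact Or.inl (Or.inl (Or.inl (mem_image_of_mem a hj)))
      have m2 : ∀ j ∈ J, a j ∈ V := fun j hj => by
        simp only [hV, mem_union]
        exact Or.inl (Or.inl (Or.inr (mem_image_of_mem a hj)))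
      have m3 : ∀ j ∈ J, b j ∈ V := fun j hj => by
        simp only [hV, mem_union]
        exact Or.inl (Or.inr (mem_image_of_mem b hj))
      refine ⟨fun j hj => ?_, fun j hj => ?_⟩
      · rw [Perm.mul_apply, Perm.mul_apply, hτ' _ (m1 j hj), hg.1 j hj, hτ _ (m1 j hj)]
      · rw [Perm.mul_apply, Perm.mul_apply, hτ' _ (m2 j hj), hg.2 j hj, hτ _ (m3 j hj)]
    have hsplit : mass q (fun g => (∀ i ∈ L, g (a i) = a i) ∧ ∀ i' ∈ insert i J, g (a i') = b i') =
        mass q (fun g => E g ∧ g (a i) = b i) := by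
      refine mass_congr fun g => ?_
      rw [hE]
      simp only [mem_insert, forall_eq_or_imp]
      tauto
    rw [hsplit, card_insert_of_notMem hi]
    have hbound0 : 0 ≤ Λ ^ L.card * (2 / (Fintype.card α : ℝ)) ^ (J.card + 1) := by positivity
    by_cases hbi : b i ∈ V
    · -- the event is empty
      refine le_trans (le_of_eq (mass_eq_zero ?_)) hbound0
      rintro g ⟨⟨hg1, hg2⟩, hg3⟩
      simp only [hV, mem_union, mem_image, mem_singleton] at hbi
      rcases hbi with ((⟨j, hj, h⟩ | ⟨j, hj, h⟩) | ⟨j, hj, h⟩) | h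
      · have h1 : g (a j) = g (a i) := by rw [hg1 j hj, hg3, h]
        exact hiL (ha (g.injective h1) ▸ hj)
      · exact hb i (mem_insert_self i J) j (mem_insert_of_mem hj) (hmax j hj).le h.symm
      · have h1 : g (a j) = g (a i) := by rw [hg2 j hj, hg3, h]
        exact hi (ha (g.injective h1) ▸ hj)
      · exact hb i (mem_insert_self i J) i (mem_insert_self i J) le_rfl h
    · have h1 := fresh hq hEc (x := a i) (y := b i) (by simp [hV]) hbi
      have h2 : (Fintype.card α : ℝ) / 2 ≤ (Fintype.card α : ℝ) - V.card := by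
        have h3 : 2 * V.card ≤ Fintype.card α := by omega
        have h4 : (2 : ℝ) * V.card ≤ Fintype.card α := by exact_mod_cast h3
        linarith
      have h5 : (Fintype.card α : ℝ) / 2 * mass q (fun g => E g ∧ g (a i) = b i) ≤ mass q E :=
        (mul_le_mul_of_nonneg_right h2 (mass_nonneg hq _)).trans h1
      have h6 : mass q (fun g => E g ∧ g (a i) = b i) ≤ 2 / (Fintype.card α : ℝ) * mass q E := by
        rw [div_mul_eq_mul_div, le_div_iff₀ hN0]
        linarith
      calc mass q (fun g => E g ∧ g (a i) = b i) ≤ 2 / (Fintype.card α : ℝ) * mass q E := h6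
        _ ≤ 2 / (Fintype.card α : ℝ) *
            (Λ ^ L.card * (2 / (Fintype.card α : ℝ)) ^ J.card) :=
          mul_le_mul_of_nonneg_left ih' (by positivity)
        _ = _ := by ring

/-! ### the matrix of the labelled cards -/

/-- the mass of `g ∘ a = b` -/
noncomputable def pm (q : Perm α → ℝ) (a b : ι ↪ α) : ℝ := mass q fun g => ∀ i, g (a i) = b i

/-- indices whose target is a point with a larger or equal index -/
def up (a b : ι → α) : Finset ι := univ.filter fun i => ∃ j, i ≤ j ∧ b i = a j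

/-- indices whose target is a point with a smaller or equal index -/
def dn (a b : ι → α) : Finset ι := univ.filter fun i => ∃ j, j ≤ i ∧ b i = a j

/-- the number of loops plus the number of targets among the points -/
def bt (a b : ι → α) : ℕ := (up a b).card + (dn a b).card

omit [LinearOrder ι] [Fintype ι] in
theorem pm_nonneg (hq : Law q Λ) (a b : ι ↪ α) : 0 ≤ pm q a b := mass_nonneg hq _

theorem pm_le_dn (hq : Law q Λ) (hΛ : 0 ≤ Λ) (hN : 4 * Fintype.card ι ≤ Fintype.card α)
    (a b : ι ↪ α) :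
    pm q a b ≤ (2 / (Fintype.card α : ℝ)) ^ (Fintype.card ι - (dn a b).card) := by
  classical
  have h := mass_steps hq hΛ hN a a.injective b ∅ (dn a b)ᶜ (disjoint_empty_left _) (by
    intro i hi j _ hji hbi
    rw [mem_compl] at hi
    exact hi (mem_filter.2 ⟨mem_univ _, j, hji, hbi⟩))
  rw [card_compl, card_empty, pow_zero, one_mul] at h
  refine le_trans (mass_mono hq fun g hg => ?_) h
  exact ⟨fun i hi => absurd hi (notMem_empty i), fun i _ => hg i⟩

end chain

section chain2
variable {ι : Type*} [LinearOrder ι] [Fintype ι]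

theorem pm_le_up (hq : Law q Λ) (hΛ : 0 ≤ Λ) (hN : 4 * Fintype.card ι ≤ Fintype.card α)
    (a b : ι ↪ α) :
    pm q a b ≤ (2 / (Fintype.card α : ℝ)) ^ (Fintype.card ι - (up a b).card) :=
  pm_le_dn (ι := ιᵒᵈ) hq hΛ hN a b

/-- **(w1)** -/
theorem pm_le (hq : Law q Λ) (hΛ : 0 ≤ Λ) (hN : 4 * Fintype.card ι ≤ Fintype.card α)
    (hα : 1 ≤ Fintype.card α) {s : ℝ} (hs : 1 ≤ s) {m : ℕ}
    (hsN : (Fintype.card α : ℝ) ≤ s ^ (2 * m)) (a b : ι ↪ α) :
    pm q a b ≤ (2 / (Fintype.card α : ℝ)) ^ Fintype.card ι * (s ^ bt a b) ^ m := by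
  have hN0 : (0 : ℝ) < Fintype.card α := by exact_mod_cast hα
  have key : ∀ u : ℕ, u ≤ Fintype.card ι → 2 * u ≤ bt a b →
      pm q a b ≤ (2 / (Fintype.card α : ℝ)) ^ (Fintype.card ι - u) →
      pm q a b ≤ (2 / (Fintype.card α : ℝ)) ^ Fintype.card ι * (s ^ bt a b) ^ m := by
    intro u hu hub h
    refine h.trans ?_
    have e1 : (2 / (Fintype.card α : ℝ)) ^ Fintype.card ι =
        (2 / (Fintype.card α : ℝ)) ^ (Fintype.card ι - u) * (2 / (Fintype.card α : ℝ)) ^ u := by
      rw [← pow_add, Nat.sub_add_cancel hu]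
    rw [e1, mul_assoc]
    refine le_mul_of_one_le_right (by positivity) ?_
    have e2 : (s ^ (2 * m)) ^ u ≤ (s ^ bt a b) ^ m := by
      rw [← pow_mul, ← pow_mul]
      refine pow_le_pow_right₀ hs ?_
      calc 2 * m * u = 2 * u * m := by ring
        _ ≤ bt a b * m := Nat.mul_le_mul_right m hub
    calc (1 : ℝ) ≤ 2 ^ u := one_le_pow₀ (by norm_num)
      _ = (2 / (Fintype.card α : ℝ)) ^ u * (Fintype.card α : ℝ) ^ u := by
          rw [← mul_pow, div_mul_cancel₀ _ hN0.ne']
      _ ≤ (2 / (Fintype.card α : ℝ)) ^ u * (s ^ (2 * m)) ^ u :=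
          mul_le_mul_of_nonneg_left (pow_le_pow_left₀ hN0.le hsN u) (by positivity)
      _ ≤ (2 / (Fintype.card α : ℝ)) ^ u * (s ^ bt a b) ^ m :=
          mul_le_mul_of_nonneg_left e2 (by positivity)
  rcases le_total (up a b).card (dn a b).card with h | h
  · exact key _ (card_le_univ _) (by unfold bt; omega) (pm_le_up hq hΛ hN a b)
  · exact key _ (card_le_univ _) (by unfold bt; omega) (pm_le_dn hq hΛ hN a b)

/-! ### (w2) -/

/-- the factor of the index `i` in the expansion of the weight -/
noncomputable def yf (s2 : ℝ) (a : ι → α) (g : Perm α) (i : ι) : Option ι → ℝ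
  | none => 1
  | some j => if g (a i) = a j then s2 else 0

/-- the bound for the factor of the index `i` -/
noncomputable def zf (A B : ℝ) (i : ι) : Option ι → ℝ
  | none => 1
  | some j => if j = i then A else B

omit [Fintype ι] [Fintype α] [LinearOrder ι] in
theorem yf_some (s2 : ℝ) (a : ι → α) (g : Perm α) (i j : ι) :
    yf s2 a g i (some j) = if g (a i) = a j then s2 else 0 := rfl

omit [Fintype ι] in
theorem zf_some (A B : ℝ) (i j : ι) : zf A B i (some j) = if j = i then A else B := rfl

omit [Fintype α] in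
theorem expand_le {s2 : ℝ} (hs : 1 ≤ s2) (a : ι → α) (g : Perm α) :
    s2 ^ (up a fun i => g (a i)).card ≤
      ∑ c ∈ Fintype.piFinset (fun i : ι => (univ.filter (i ≤ ·)).insertNone),
        ∏ i, yf s2 a g i (c i) := by
  classical
  rw [← prod_univ_sum]
  have h1 : s2 ^ (up a fun i => g (a i)).card =
      ∏ i, if i ∈ up a (fun i => g (a i)) then s2 else 1 := by
    rw [prod_ite_mem, univ_inter, prod_const]
  rw [h1]
  refine prod_le_prod (fun i _ => by split_ifs <;> linarith) fun i _ => ?_
  rw [sum_insertNone]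
  have h2 : ∀ j ∈ univ.filter (i ≤ ·), 0 ≤ yf s2 a g i (some j) := fun j _ => by
    rw [yf_some]; split_ifs <;> linarith
  split_ifs with hi
  · obtain ⟨j, hij, hj⟩ := (mem_filter.1 hi).2
    have h3 := single_le_sum h2 (mem_filter.2 ⟨mem_univ j, hij⟩)
    have h4 : yf s2 a g i (some j) = s2 := if_pos hj
    rw [h4] at h3
    have h5 : yf s2 a g i none = 1 := rfl
    linarith
  · have h3 := sum_nonneg h2
    have h5 : yf s2 a g i none = 1 := rfl
    linarith

theorem term_le (hq : Law q Λ) (hΛ : 0 ≤ Λ) (hN : 4 * Fintype.card ι ≤ Fintype.card α)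
    {s2 : ℝ} (hs : 1 ≤ s2) (a : ι ↪ α) (c : ι → Option ι) (hc : ∀ i j, c i = some j → i ≤ j) :
    ∑ g, q g * ∏ i, yf s2 a g i (c i) ≤
      ∏ i, zf (s2 * Λ) (s2 * (2 / (Fintype.card α : ℝ))) i (c i) := by
  classical
  set L : Finset ι := univ.filter fun i => c i = some i with hL
  set J : Finset ι := univ.filter fun i => ∃ j, c i = some j ∧ j ≠ i with hJ
  set b : ι → α := fun i => (c i).elim (a i) a with hb
  have hz : ∏ i, zf (s2 * Λ) (s2 * (2 / (Fintype.card α : ℝ))) i (c i) =
      (s2 * Λ) ^ L.card * (s2 * (2 / (Fintype.card α : ℝ))) ^ J.card := by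
    have h1 : ∀ i, zf (s2 * Λ) (s2 * (2 / (Fintype.card α : ℝ))) i (c i) =
        (if i ∈ L then s2 * Λ else 1) * if i ∈ J then s2 * (2 / (Fintype.card α : ℝ)) else 1 := by
      intro i
      rcases hci : c i with _ | j
      · have h2 : i ∉ L := by simp [hL, hci]
        have h3 : i ∉ J := by simp [hJ, hci]
        simp [zf, h2, h3]
      · by_cases hji : j = i
        · have h2 : i ∈ L := by simp [hL, hci, hji]
          have h3 : i ∉ J := by simp [hJ, hci, hji]
          simp [zf, h2, h3, hji]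
        · have h2 : i ∉ L := by simp [hL, hci, hji]
          have h3 : i ∈ J := by simp [hJ, hci, hji]
          simp [zf, h2, h3, hji]
    rw [prod_congr rfl fun i _ => h1 i, prod_mul_distrib, prod_ite_mem, prod_ite_mem, univ_inter,
      univ_inter, prod_const, prod_const]
  have hy : ∀ g, ∏ i, yf s2 a g i (c i) ≤
      s2 ^ (L.card + J.card) *
        if ((∀ i ∈ L, g (a i) = a i) ∧ ∀ i ∈ J, g (a i) = b i) then 1 else 0 := by
    intro g
    split_ifs with hg
    · rw [mul_one, pow_add]
      have h1 : s2 ^ L.card * s2 ^ J.card =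
          ∏ i, ((if i ∈ L then s2 else 1) * if i ∈ J then s2 else 1) := by
        rw [prod_mul_distrib, prod_ite_mem, prod_ite_mem, univ_inter, univ_inter, prod_const,
          prod_const]
      rw [h1]
      refine prod_le_prod (fun i _ => ?_) fun i _ => ?_
      · rcases c i with _ | j
        · exact zero_le_one
        · rw [yf_some]
          split_ifs <;> linarith
      · rcases hci : c i with _ | j
        · have h2 : i ∉ L := by simp [hL, hci]
          have h3 : i ∉ J := by simp [hJ, hci]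
          simp [yf, h2, h3]
        · have h4 : yf s2 a g i (some j) ≤ s2 := by
            rw [yf_some]
            split_ifs <;> linarith
          refine h4.trans ?_
          by_cases hji : j = i
          · have h2 : i ∈ L := by simp [hL, hci, hji]
            have h3 : i ∉ J := by simp [hJ, hci, hji]
            simp [h2, h3]
          · have h2 : i ∉ L := by simp [hL, hci, hji]
            have h3 : i ∈ J := by simp [hJ, hci, hji]
            simp [h2, h3]
    · rw [mul_zero]
      refine le_of_eq ?_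
      rw [not_and_or] at hg
      have hex : ∃ i, ∃ j, c i = some j ∧ g (a i) ≠ a j := by
        rcases hg with hg | hg
        · push Not at hg
          obtain ⟨i, hi, hne⟩ := hg
          exact ⟨i, i, (mem_filter.1 hi).2, hne⟩
        · push Not at hg
          obtain ⟨i, hi, hne⟩ := hg
          obtain ⟨j, hj, -⟩ := (mem_filter.1 hi).2
          refine ⟨i, j, hj, ?_⟩
          simpa [hb, hj] using hne
      obtain ⟨i, j, hj, hne⟩ := hex
      refine prod_eq_zero (mem_univ i) ?_
      rw [hj]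
      exact if_neg hne
  have hs0 : (0 : ℝ) ≤ s2 := by linarith
  calc ∑ g, q g * ∏ i, yf s2 a g i (c i)
      ≤ ∑ g, q g * (s2 ^ (L.card + J.card) *
        if ((∀ i ∈ L, g (a i) = a i) ∧ ∀ i ∈ J, g (a i) = b i) then 1 else 0) :=
        sum_le_sum fun g _ => mul_le_mul_of_nonneg_left (hy g) (hq.nonneg g)
    _ = s2 ^ (L.card + J.card) *
        mass q (fun g => (∀ i ∈ L, g (a i) = a i) ∧ ∀ i ∈ J, g (a i) = b i) := by
        unfold mass
        rw [mul_sum]
        refine sum_congr rfl fun g _ => ?_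
        by_cases h : (∀ i ∈ L, g (a i) = a i) ∧ ∀ i ∈ J, g (a i) = b i
        · rw [if_pos h, if_pos h]; ring
        · rw [if_neg h, if_neg h]; ring
    _ ≤ s2 ^ (L.card + J.card) * (Λ ^ L.card * (2 / (Fintype.card α : ℝ)) ^ J.card) := by
        refine mul_le_mul_of_nonneg_left ?_ (by positivity)
        refine mass_steps hq hΛ hN a a.injective b L J ?_ ?_
        · rw [Finset.disjoint_left]
          intro i hi hi'
          obtain ⟨j, hj, hne⟩ := (mem_filter.1 hi').2
          rw [(mem_filter.1 hi).2] at hj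
          exact hne (Option.some.inj hj).symm
        · intro i hi i' _ hle
          obtain ⟨j, hj, hne⟩ := (mem_filter.1 hi).2
          have h1 := hc i j hj
          have h2 : b i = a j := by simp [hb, hj]
          rw [h2]
          intro h3
          have h4 := a.injective h3
          subst h4
          exact hne (le_antisymm hle h1)
    _ = _ := by rw [hz, pow_add, mul_pow, mul_pow]; ring

theorem sum_up_le (hq : Law q Λ) (hΛ : 0 ≤ Λ) (hN : 4 * Fintype.card ι ≤ Fintype.card α)
    {s2 : ℝ} (hs : 1 ≤ s2) (h1 : s2 * Λ ≤ 1)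
    (h2 : Fintype.card ι * (s2 * (2 / (Fintype.card α : ℝ))) ≤ 1) (a : ι ↪ α) :
    ∑ g, q g * s2 ^ (up a fun i => g (a i)).card ≤ 3 ^ Fintype.card ι := by
  classical
  have hs0 : (0 : ℝ) ≤ s2 := by linarith
  calc ∑ g, q g * s2 ^ (up a fun i => g (a i)).card
      ≤ ∑ g, q g * ∑ c ∈ Fintype.piFinset (fun i : ι => (univ.filter (i ≤ ·)).insertNone),
        ∏ i, yf s2 a g i (c i) :=
        sum_le_sum fun g _ => mul_le_mul_of_nonneg_left (expand_le hs a g) (hq.nonneg g)
    _ = ∑ c ∈ Fintype.piFinset (fun i : ι => (univ.filter (i ≤ ·)).insertNone),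
        ∑ g, q g * ∏ i, yf s2 a g i (c i) := by
        rw [sum_comm]
        exact sum_congr rfl fun g _ => mul_sum _ _ _
    _ ≤ ∑ c ∈ Fintype.piFinset (fun i : ι => (univ.filter (i ≤ ·)).insertNone),
        ∏ i, zf (s2 * Λ) (s2 * (2 / (Fintype.card α : ℝ))) i (c i) := by
        refine sum_le_sum fun c hc => term_le hq hΛ hN hs a c fun i j hij => ?_
        have h3 := Fintype.mem_piFinset.1 hc i
        rw [hij] at h3
        simpa using h3
    _ = ∏ i : ι, ∑ o ∈ (univ.filter (i ≤ ·)).insertNone,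
        zf (s2 * Λ) (s2 * (2 / (Fintype.card α : ℝ))) i o := by rw [prod_univ_sum]
    _ ≤ ∏ _i : ι, (3 : ℝ) := by
        refine prod_le_prod (fun i _ => sum_nonneg fun o _ => ?_) fun i _ => ?_
        · rcases o with _ | j
          · exact zero_le_one
          · rw [zf_some]
            split_ifs <;> positivity
        · rw [sum_insertNone]
          have h3 : zf (s2 * Λ) (s2 * (2 / (Fintype.card α : ℝ))) i none = 1 := rfl
          have h4 : ∑ j ∈ univ.filter (i ≤ ·),
              zf (s2 * Λ) (s2 * (2 / (Fintype.card α : ℝ))) i (some j) ≤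
              ∑ j : ι, ((if j = i then s2 * Λ else 0) + s2 * (2 / (Fintype.card α : ℝ))) := by
            refine (sum_le_sum_of_subset_of_nonneg (filter_subset _ _) fun j _ _ => ?_).trans
              (sum_le_sum fun j _ => ?_)
            · rw [zf_some]
              split_ifs <;> positivity
            · rw [zf_some]
              have h5 : 0 ≤ s2 * (2 / (Fintype.card α : ℝ)) := by positivity
              split_ifs <;> linarith
          rw [sum_add_distrib, sum_ite_eq' univ i, if_pos (mem_univ i), sum_const, card_univ,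
            nsmul_eq_mul] at h4
          linarith
    _ = 3 ^ Fintype.card ι := by rw [prod_const, card_univ]

end chain2

section chain3
variable {ι : Type*} [LinearOrder ι] [Fintype ι]

theorem sum_dn_le (hq : Law q Λ) (hΛ : 0 ≤ Λ) (hN : 4 * Fintype.card ι ≤ Fintype.card α)
    {s2 : ℝ} (hs : 1 ≤ s2) (h1 : s2 * Λ ≤ 1)
    (h2 : Fintype.card ι * (s2 * (2 / (Fintype.card α : ℝ))) ≤ 1) (a : ι ↪ α) :
    ∑ g, q g * s2 ^ (dn a fun i => g (a i)).card ≤ 3 ^ Fintype.card ι :=
  sum_up_le (ι := ιᵒᵈ) hq hΛ hN hs h1 h2 a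

omit [LinearOrder ι] in
theorem pm_eq (q : Perm α → ℝ) (a b : ι ↪ α) :
    pm q a b = ∑ g : Perm α, if (∀ i, g (a i) = b i) then q g else 0 := by
  unfold pm mass
  refine sum_congr rfl fun g _ => ?_
  congr

omit [LinearOrder ι] in
theorem sum_pm_mul [DecidableEq ι] (a : ι ↪ α) (f : (ι ↪ α) → ℝ) :
    ∑ b, pm q a b * f b = ∑ g, q g * f (a.trans g.toEmbedding) := by
  classical
  unfold pm mass
  simp_rw [sum_mul]
  rw [sum_comm]
  refine sum_congr rfl fun g _ => ?_
  rw [sum_eq_single (a.trans g.toEmbedding)]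
  · have h : ∀ i, g (a i) = (a.trans g.toEmbedding) i := fun i => rfl
    rw [if_pos h]
  · intro b _ hb
    rw [if_neg, zero_mul]
    intro h
    exact hb (by ext i; exact (h i).symm)
  · intro h
    exact absurd (mem_univ _) h

/-- **(w2)** -/
theorem sum_pm_le (hq : Law q Λ) (hΛ : 0 ≤ Λ) (hN : 4 * Fintype.card ι ≤ Fintype.card α)
    {s : ℝ} (hs : 1 ≤ s) (h1 : s ^ 2 * Λ ≤ 1)
    (h2 : Fintype.card ι * (s ^ 2 * (2 / (Fintype.card α : ℝ))) ≤ 1) (a : ι ↪ α) :
    ∑ b, pm q a b * s ^ bt a b ≤ 2 * 3 ^ Fintype.card ι := by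
  rw [sum_pm_mul a fun b => s ^ bt a b]
  have hs2 : 1 ≤ s ^ 2 := one_le_pow₀ hs
  have h3 := sum_up_le hq hΛ hN hs2 h1 h2 a
  have h4 := sum_dn_le hq hΛ hN hs2 h1 h2 a
  have h5 : ∀ g : Perm α, q g * s ^ bt a (a.trans g.toEmbedding) ≤
      q g * (s ^ 2) ^ (up a fun i => g (a i)).card +
        q g * (s ^ 2) ^ (dn a fun i => g (a i)).card := by
    intro g
    rw [← mul_add]
    refine mul_le_mul_of_nonneg_left ?_ (hq.nonneg g)
    have e1 : bt a (a.trans g.toEmbedding) =
        (up a fun i => g (a i)).card + (dn a fun i => g (a i)).card := rfl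
    rw [e1, pow_add, ← pow_mul, ← pow_mul, mul_comm 2, mul_comm 2, pow_mul, pow_mul]
    have hx : 0 ≤ s ^ (up a fun i => g (a i)).card := by positivity
    have hy : 0 ≤ s ^ (dn a fun i => g (a i)).card := by positivity
    nlinarith [sq_nonneg (s ^ (up a fun i => g (a i)).card - s ^ (dn a fun i => g (a i)).card)]
  calc ∑ g, q g * s ^ bt a (a.trans g.toEmbedding)
      ≤ ∑ g, (q g * (s ^ 2) ^ (up a fun i => g (a i)).card +
        q g * (s ^ 2) ^ (dn a fun i => g (a i)).card) := sum_le_sum fun g _ => h5 g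
    _ ≤ 3 ^ Fintype.card ι + 3 ^ Fintype.card ι := by
        rw [sum_add_distrib]; exact add_le_add h3 h4
    _ = 2 * 3 ^ Fintype.card ι := by ring

omit [LinearOrder ι] in
theorem pm_symm (hq : Law q Λ) (a b : ι ↪ α) : pm q a b = pm q b a := by
  classical
  unfold pm mass
  refine Fintype.sum_equiv (Equiv.inv (Perm α)) _ _ fun g => ?_
  have h : (∀ i, g (a i) = b i) ↔ ∀ i, (Equiv.inv (Perm α) g) (b i) = a i := by
    refine forall_congr' fun i => ?_
    show g (a i) = b i ↔ g⁻¹ (b i) = a i
    rw [Perm.inv_eq_iff_eq]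
    exact eq_comm
  have h2 : q (Equiv.inv (Perm α) g) = q g := hq.inv g
  by_cases hg : ∀ i, g (a i) = b i
  · rw [if_pos hg, if_pos (h.1 hg), h2]
  · rw [if_neg hg, if_neg fun h' => hg (h.2 h')]

omit [Fintype α] in
theorem bt_eq (a b : ι ↪ α) : bt a b = (univ.filter fun i => b i = a i).card +
    ((univ.image a) ∩ (univ.image b)).card := by
  classical
  have h1 : up a b ∩ dn a b = univ.filter fun i => b i = a i := by
    ext i
    simp only [up, dn, mem_inter, mem_filter, mem_univ, true_and]
    constructor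
    · rintro ⟨⟨j, hij, hj⟩, ⟨j', hij', hj'⟩⟩
      have : j = j' := a.injective (hj ▸ hj')
      subst this
      have : j = i := le_antisymm hij' hij
      subst this
      exact hj
    · intro h
      exact ⟨⟨i, le_rfl, h⟩, ⟨i, le_rfl, h⟩⟩
  have h2 : ((up a b ∪ dn a b).image b) = (univ.image a) ∩ (univ.image b) := by
    ext x
    simp only [up, dn, mem_image, mem_union, mem_filter, mem_univ, true_and, mem_inter]
    constructor
    · rintro ⟨i, (⟨j, -, hj⟩ | ⟨j, -, hj⟩), rfl⟩
      · exact ⟨⟨j, hj.symm⟩, ⟨i, rfl⟩⟩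
      · exact ⟨⟨j, hj.symm⟩, ⟨i, rfl⟩⟩
    · rintro ⟨⟨j, hj⟩, ⟨i, rfl⟩⟩
      refine ⟨i, ?_, rfl⟩
      rcases le_total i j with h | h
      · exact Or.inl ⟨j, h, hj.symm⟩
      · exact Or.inr ⟨j, h, hj.symm⟩
  rw [bt, ← card_union_add_card_inter, h1, add_comm, ← h2, card_image_of_injective _ b.injective]

omit [Fintype α] in
theorem bt_symm (a b : ι ↪ α) : bt a b = bt b a := by
  rw [bt_eq, bt_eq, inter_comm]
  congr 2
  ext i
  simp only [mem_filter, mem_univ, true_and]
  exact eq_comm

end chain3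

end Vale.Agent.P162.H560
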